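import Mathlib

namespace Vale.Agent.P096H

section
variable {E : Type*} [NormedAddCommGroup E] [NormedSpace ℂ E]

/-- The Hausdorff distance of the unit balls of two subspaces. -/
noncomputable def ballDist (M N : Submodule ℂ E) : ℝ :=
  Metric.hausdorffDist {x : E | x ∈ M ∧ ‖x‖ ≤ 1} {x : E | x ∈ N ∧ ‖x‖ ≤ 1}

/-- There is a linear map from `M` to `N` within `δ` of the inclusion of `M`. -/
def LinMap (δ : ℝ) (M N : Submodule ℂ E) : Prop :=
  ∃ Φ : M →ₗ[ℂ] E, (∀ x, Φ x ∈ N) ∧ ∀ x, ‖Φ x - (x : E)‖ ≤ δ * ‖(x : E)‖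

/-- `N` is the range of a linear projection of norm at most `K` defined on a subspace containing
`M` and `N`. -/
def Proj (K : ℝ) (M N : Submodule ℂ E) : Prop :=
  ∃ (L : Submodule ℂ E) (P : L →ₗ[ℂ] E), M ≤ L ∧ N ≤ L ∧ (∀ z, P z ∈ N) ∧
    (∀ z : L, (z : E) ∈ N → P z = z) ∧ ∀ z : L, ‖P z‖ ≤ K * ‖(z : E)‖

end

/-- `M` and `N` are conjugate by a unitary within `ε` of the identity. -/
def UConj {A : Type*} [NormedRing A] [StarMul A] (ε : ℝ) (M N : Set A) : Prop :=
  ∃ u ∈ unitary A, (fun x => u * x * star u) '' M = N ∧ ‖u - 1‖ < ε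

variable {H : Type*} [NormedAddCommGroup H] [InnerProductSpace ℂ H] [CompleteSpace H]

/-- A von Neumann algebra as a linear subspace of the bounded operators. -/
def sp (M : VonNeumannAlgebra H) : Submodule ℂ (H →L[ℂ] H) :=
  Subalgebra.toSubmodule M.toStarSubalgebra.toSubalgebra

/-- The Kadison-Kastler distance. -/
noncomputable def kkd (M N : VonNeumannAlgebra H) : ℝ := ballDist (sp M) (sp N)

/-- The linear hypothesis on a pair of von Neumann algebras. -/
def Hyp (δ K : ℝ) (M N : VonNeumannAlgebra H) : Prop :=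
  LinMap δ (sp M) (sp N) ∨ Proj K (sp M) (sp N)

end Vale.Agent.P096H
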