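import Mathlib

namespace Vale.Agent.P096H

variable {H : Type*} [NormedAddCommGroup H] [InnerProductSpace ℂ H] [CompleteSpace H]

/-- The Kadison-Kastler distance: the Hausdorff distance of the unit balls. -/
noncomputable def kk (M N : VonNeumannAlgebra H) : ℝ :=
  Metric.hausdorffDist {x : H →L[ℂ] H | x ∈ M ∧ ‖x‖ ≤ 1} {x : H →L[ℂ] H | x ∈ N ∧ ‖x‖ ≤ 1}

/-- There is a linear map from `M` to `N` within `δ` of the inclusion of `M`. -/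
def LinNear (δ : ℝ) (M N : VonNeumannAlgebra H) : Prop :=
  ∃ Φ : M.toStarSubalgebra →ₗ[ℂ] (H →L[ℂ] H), (∀ x, Φ x ∈ N) ∧
    ∀ x, ‖Φ x - (x : H →L[ℂ] H)‖ ≤ δ * ‖(x : H →L[ℂ] H)‖

/-- `N` is the range of a linear projection of norm at most `K` defined on a linear space of
operators containing `M` and `N`. -/
def Compl (K : ℝ) (M N : VonNeumannAlgebra H) : Prop :=
  ∃ (L : Submodule ℂ (H →L[ℂ] H)) (E : L →ₗ[ℂ] (H →L[ℂ] H)), (∀ x ∈ M, x ∈ L) ∧ (∀ y ∈ N, y ∈ L) ∧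
    (∀ z, E z ∈ N) ∧ (∀ z : L, (z : H →L[ℂ] H) ∈ N → E z = z) ∧
    ∀ z : L, ‖E z‖ ≤ K * ‖(z : H →L[ℂ] H)‖

end Vale.Agent.P096H
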