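import Vale.Agent.P096H.Op

/-! Close representations are conjugate by a unitary close to the identity. -/

namespace Vale.Agent.P096H

open scoped InnerProductSpace
open Vale.Agent.P104 WithLp

variable {A : Type*} [CStarAlgebra A]
variable {H : Type*} [NormedAddCommGroup H] [InnerProductSpace ℂ H] [CompleteSpace H]

/-- upper triangular operators -/
noncomputable def tri (a b c : H →L[ℂ] H) : WithLp 2 (H × H) →L[ℂ] WithLp 2 (H × H) :=
  (prodContinuousLinearEquiv 2 ℂ H H).symm.toContinuousLinearMap ∘L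
    ((a ∘L fstL 2 ℂ H H + b ∘L sndL 2 ℂ H H).prod (c ∘L sndL 2 ℂ H H))

omit [CompleteSpace H] in
theorem tri_apply (a b c : H →L[ℂ] H) (v : WithLp 2 (H × H)) :
    tri a b c v = toLp 2 (a v.fst + b v.snd, c v.snd) := rfl

omit [CompleteSpace H] in
theorem tri_norm {a b c : H →L[ℂ] H} {r : ℝ} (ha : ‖a‖ ≤ r) (hb : ‖b‖ ≤ r) (hc : ‖c‖ ≤ r) :
    ‖tri a b c‖ ≤ 3 * r := by
  have r0 := (norm_nonneg a).trans ha
  refine ContinuousLinearMap.opNorm_le_bound _ (by positivity) fun v => ?_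
  have e : tri a b c v = toLp 2 (a v.fst + b v.snd, 0) + toLp 2 (0, c v.snd) := by
    rw [tri_apply, ← toLp_add]
    simp
  have h1 := (a.le_opNorm v.fst).trans (mul_le_mul ha (WithLp.norm_fst_le _ v) (norm_nonneg _) r0)
  have h2 := (b.le_opNorm v.snd).trans (mul_le_mul hb (WithLp.norm_snd_le _ v) (norm_nonneg _) r0)
  have h3 := (c.le_opNorm v.snd).trans (mul_le_mul hc (WithLp.norm_snd_le _ v) (norm_nonneg _) r0)
  rw [e]
  refine (norm_add_le _ _).trans ?_
  rw [norm_toLp_fst, norm_toLp_snd]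
  linarith [norm_add_le (a v.fst) (b v.snd)]

/-- the triangular representation of a derivation -/
noncomputable def triH (ι θ : A →⋆ₐ[ℂ] (H →L[ℂ] H)) (δ : A →ₗ[ℂ] (H →L[ℂ] H))
    (hδ : ∀ x y, δ (x * y) = θ x * δ y + δ x * ι y) :
    A →ₐ[ℂ] (WithLp 2 (H × H) →L[ℂ] WithLp 2 (H × H)) :=
  AlgHom.ofLinearMap
    { toFun := fun x => tri (θ x) (δ x) (ι x)
      map_add' := fun x y => by
        ext1 v
        simp only [tri_apply, ContinuousLinearMap.add_apply, ← toLp_add, map_add,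
          Prod.mk_add_mk]
        congr 2
        abel
      map_smul' := fun s x => by
        ext1 v
        simp only [tri_apply, ← toLp_smul, map_smul, RingHom.id_apply,
          ContinuousLinearMap.smul_apply, Prod.smul_mk, smul_add] }
    (by
      have h := hδ 1 1
      rw [mul_one, map_one θ, map_one ι, mul_one, one_mul, left_eq_add] at h
      ext1 v
      simp only [LinearMap.coe_mk, AddHom.coe_mk, tri_apply, map_one, h,
        ContinuousLinearMap.zero_apply, add_zero, ContinuousLinearMap.one_apply]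
      rfl)
    fun x y => by
      ext1 v
      simp only [LinearMap.coe_mk, AddHom.coe_mk, tri_apply, map_mul, hδ,
        ContinuousLinearMap.mul_apply, toLp_fst, toLp_snd, map_add,
        ContinuousLinearMap.add_apply, add_assoc]

theorem triH_apply (ι θ : A →⋆ₐ[ℂ] (H →L[ℂ] H)) (δ : A →ₗ[ℂ] (H →L[ℂ] H))
    (hδ : ∀ x y, δ (x * y) = θ x * δ y + δ x * ι y) (x : A) (v : WithLp 2 (H × H)) :
    triH ι θ δ hδ x v = toLp 2 (θ x v.fst + δ x v.snd, ι x v.snd) := rfl

theorem low_of_le {T : H →L[ℂ] H} (h : 1 ≤ T) (v : H) : ‖v‖ ≤ ‖T v‖ := by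
  rw [← sub_nonneg, ContinuousLinearMap.nonneg_iff_isPositive] at h
  have h1 := h.re_inner_nonneg_left v
  rw [ContinuousLinearMap.sub_apply, ContinuousLinearMap.one_apply, inner_sub_left, map_sub,
    inner_self_eq_norm_sq, sub_nonneg, sq] at h1
  have h2 := (RCLike.re_le_norm _).trans (norm_inner_le_norm (𝕜 := ℂ) (T v) v)
  rcases (norm_nonneg v).eq_or_lt with h | h
  · rw [← h]; exact norm_nonneg _
  · exact le_of_mul_le_mul_right (h1.trans h2) h

variable [PartialOrder A] [StarOrderedRing A]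

theorem der (ι θ : A →⋆ₐ[ℂ] (H →L[ℂ] H)) (δ : A →ₗ[ℂ] (H →L[ℂ] H))
    (hδ : ∀ x y, δ (x * y) = θ x * δ y + δ x * ι y) (h : ∀ x, ‖δ x‖ ≤ ‖x‖) :
    ∃ Y : H →L[ℂ] H, ‖Y‖ ≤ 4 * (K2 3 + 1) ^ 2 ∧ ∀ x, δ x = θ x * Y - Y * ι x := by
  obtain ⟨T, T1, T2, T3⟩ := op_q (π := triH ι θ δ hδ) (c := 3) (by norm_num) (fun x =>
    tri_norm (NonUnitalStarAlgHom.norm_apply_le θ x) (h x)
      (NonUnitalStarAlgHom.norm_apply_le ι x)) rfl
  let j : H →L[ℂ] WithLp 2 (H × H) :=
    (prodContinuousLinearEquiv 2 ℂ H H).symm.toContinuousLinearMap ∘L .inl ℂ H H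
  let j' : H →L[ℂ] WithLp 2 (H × H) :=
    (prodContinuousLinearEquiv 2 ℂ H H).symm.toContinuousLinearMap ∘L .inr ℂ H H
  have hj : ∀ v, j v = toLp 2 (v, 0) := fun _ => rfl
  have hj' : ∀ v, j' v = toLp 2 (0, v) := fun _ => rfl
  have jj : j.adjoint ∘L j = 1 := by
    ext1 v
    refine ext_inner_right ℂ fun w => ?_
    rw [ContinuousLinearMap.comp_apply, ContinuousLinearMap.adjoint_inner_left, hj, hj,
      prod_inner_apply]
    simp
  have h1 : 1 ≤ j.adjoint ∘L T ∘L j := by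
    rw [← sub_nonneg, ContinuousLinearMap.nonneg_iff_isPositive] at T1 ⊢
    have := T1.adjoint_conj j
    rwa [ContinuousLinearMap.sub_comp, ContinuousLinearMap.comp_sub,
      show (1 : WithLp 2 (H × H) →L[ℂ] _) ∘L j = j from rfl, jj] at this
  obtain ⟨U, hU⟩ := CStarAlgebra.isUnit_of_le 1 h1
  let Y : H →L[ℂ] H := (↑U⁻¹ : H →L[ℂ] H) ∘L j.adjoint ∘L T ∘L j'
  have hY : ∀ v, j.adjoint (T (j (Y v))) = j.adjoint (T (j' v)) := fun v => by
    have := congrArg (fun R : H →L[ℂ] H => R (j.adjoint (T (j' v)))) U.mul_inv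
    rw [hU] at this
    exact this
  have nj : ‖j‖ ≤ 1 := j.opNorm_le_bound zero_le_one fun v => by
    rw [hj, norm_toLp_fst, one_mul]
  have nY : ‖Y‖ ≤ 4 * (K2 3 + 1) ^ 2 := Y.opNorm_le_bound (by positivity) fun v => by
    refine (low_of_le h1 (Y v)).trans ?_
    change ‖j.adjoint (T (j (Y v)))‖ ≤ _
    rw [hY]
    refine (j.adjoint.le_opNorm _).trans ((mul_le_of_le_one_left (norm_nonneg _) (by
      rwa [LinearIsometryEquiv.norm_map])).trans ((T.le_opNorm _).trans ?_))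
    rw [hj', norm_toLp_snd]
    exact mul_le_mul_of_nonneg_right T2 (norm_nonneg _)
  have key : ∀ u ∈ unitary A, δ u = θ u * Y - Y * ι u := by
    intro u hu
    ext1 ξ
    have e1 : ∀ ξ, j.adjoint (T (j' ξ - j (Y ξ))) = 0 := fun ξ => by
      rw [map_sub, map_sub, hY, sub_self]
    have e2 : j.adjoint (T (triH ι θ δ hδ u (j' ξ - j (Y ξ)))) = 0 := by
      refine ext_inner_right ℂ fun ζ => ?_
      have e3 : j ζ = triH ι θ δ hδ u (j (θ (star u) ζ)) := by
        rw [triH_apply, hj, hj, toLp_fst, toLp_snd, ← ContinuousLinearMap.mul_apply, ← map_mul,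
          Unitary.mul_star_self_of_mem hu]
        simp
      have e4 := congrArg (fun R => ⟪R (j' ξ - j (Y ξ)), j (θ (star u) ζ)⟫_ℂ) (T3 u hu)
      simp only [ContinuousLinearMap.mul_apply, ContinuousLinearMap.star_eq_adjoint,
        ContinuousLinearMap.adjoint_inner_left] at e4
      rw [ContinuousLinearMap.adjoint_inner_left, e3, e4,
        ← ContinuousLinearMap.adjoint_inner_left, e1, inner_zero_left, inner_zero_left]
    have e5 : triH ι θ δ hδ u (j' ξ - j (Y ξ)) = (j' (ι u ξ) - j (Y (ι u ξ))) +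
        j (δ u ξ - θ u (Y ξ) + Y (ι u ξ)) := by
      simp only [triH_apply, hj, hj', ← toLp_sub, ← toLp_add, toLp_fst, toLp_snd, Prod.mk_sub_mk,
        Prod.mk_add_mk, zero_sub, sub_zero, add_zero, map_neg]
      congr 2
      abel
    rw [e5, map_add, map_add, e1, zero_add] at e2
    have e6 := low_of_le h1 (δ u ξ - θ u (Y ξ) + Y (ι u ξ))
    rw [show (j.adjoint ∘L T ∘L j) _ = 0 from e2, norm_zero, norm_le_zero_iff] at e6
    simp only [ContinuousLinearMap.mul_apply, ContinuousLinearMap.sub_apply]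
    rw [← sub_eq_zero, ← e6]
    abel
  refine ⟨Y, nY, fun x => ?_⟩
  obtain ⟨u, r, rfl, -⟩ := CStarAlgebra.exists_sum_four_unitary x
  simp only [map_sum, map_smul, Finset.mul_sum, Finset.sum_mul, mul_smul_comm,
    smul_mul_assoc, fun i => key _ (u i).2, smul_sub, Finset.sum_sub_distrib]

theorem inter (ι θ : A →⋆ₐ[ℂ] (H →L[ℂ] H)) {η : ℝ} (hη : 0 < η)
    (h : ∀ x, ‖θ x - ι x‖ ≤ η * ‖x‖) :
    ∃ S : H →L[ℂ] H, ‖S - 1‖ ≤ 4 * (K2 3 + 1) ^ 2 * η ∧ ∀ x, θ x * S = S * ι x := by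
  have hη' : (η : ℂ) ≠ 0 := by exact_mod_cast hη.ne'
  obtain ⟨Y, nY, hY⟩ := der ι θ ((η : ℂ)⁻¹ • (θ.toAlgHom.toLinearMap - ι.toAlgHom.toLinearMap))
    (fun x y => by
      change (η : ℂ)⁻¹ • (θ (x * y) - ι (x * y)) =
        θ x * ((η : ℂ)⁻¹ • (θ y - ι y)) + ((η : ℂ)⁻¹ • (θ x - ι x)) * ι y
      simp only [map_mul, mul_smul_comm, smul_mul_assoc, mul_sub, sub_mul]
      module) fun x => by
      change ‖(η : ℂ)⁻¹ • (θ x - ι x)‖ ≤ _
      rw [norm_smul, norm_inv, Complex.norm_real, Real.norm_of_nonneg hη.le,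
        inv_mul_le_iff₀ hη]
      exact h x
  refine ⟨1 - (η : ℂ) • Y, ?_, fun x => ?_⟩
  · rw [sub_sub_cancel_left, norm_neg, norm_smul, Complex.norm_real, Real.norm_of_nonneg hη.le,
      mul_comm]
    exact mul_le_mul_of_nonneg_right nY hη.le
  · have e : (η : ℂ)⁻¹ • (θ x - ι x) = θ x * Y - Y * ι x := hY x
    rw [inv_smul_eq_iff₀ hη', sub_eq_iff_eq_add] at e
    simp only [mul_sub, sub_mul, mul_one, one_mul, mul_smul_comm, smul_mul_assoc]
    rw [sub_eq_iff_eq_add]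
    conv_lhs => rw [e]
    module

theorem polar {S : H →L[ℂ] H} {ε : ℝ} (hε : ε ≤ 1 / 10) (h : ‖S - 1‖ ≤ ε) :
    ∃ d : H →L[ℂ] H, S * d ∈ unitary (H →L[ℂ] H) ∧ ‖S * d - 1‖ ≤ 10 * ε ∧
      ∀ x, Commute (star S * S) x → Commute d x := by
  have e0 := (norm_nonneg _).trans h
  have n1 : ‖(1 : H →L[ℂ] H)‖ ≤ 1 := ContinuousLinearMap.norm_id_le
  have nS : ‖S‖ ≤ 1 + ε := by
    have := norm_add_le (S - 1) 1
    rw [sub_add_cancel] at this
    linarith
  have h1 : ‖star S * S - 1‖ ≤ 3 * ε := by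
    have e : star S * S - 1 = star (S - 1) * S + (S - 1) := by
      rw [star_sub, star_one, sub_mul, one_mul]
      abel
    have := (norm_mul_le (star (S - 1)) S).trans
      (mul_le_mul ((norm_star _).trans_le h) nS (norm_nonneg _) e0)
    rw [e]
    refine (norm_add_le _ _).trans ?_
    nlinarith
  have sa : IsSelfAdjoint (star S * S - 1) := (IsSelfAdjoint.star_mul_self S).sub (.one _)
  have h2 : 0 ≤ star S * S - (1 / 2 : ℝ) • 1 := by
    have k1 := sa.neg_algebraMap_norm_le_self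
    have k2 : (0 : H →L[ℂ] H) ≤ (1 / 2 - ‖star S * S - 1‖ : ℝ) • 1 :=
      smul_nonneg (by linarith) zero_le_one
    rw [Algebra.algebraMap_eq_smul_one, ← sub_nonneg] at k1
    refine (add_nonneg k1 k2).trans_eq ?_
    module
  obtain ⟨d, d0, d1, dc⟩ := exists_invsqrt h2 (show (0 : ℝ) < 1 / 2 by norm_num)
  have cm : ∀ x, Commute (star S * S) x → Commute d x := fun x hx =>
    dc x (hx.sub_left ((Commute.one_left x).smul_left _))
  rw [sub_add_cancel] at d1
  have dd : d * d * (star S * S) = 1 := by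
    rw [mul_assoc, (cm _ (Commute.refl _)).eq, ← mul_assoc, d1]
  have u1 : star (S * d) * (S * d) = 1 := by
    rw [star_mul, d0.star_eq, ← d1]
    simp only [mul_assoc]
  have hS : IsUnit S := by
    have := (Units.oneSub (1 - S) (by rw [norm_sub_rev]; linarith)).isUnit
    simpa using this
  have hd : IsUnit d := by
    refine ⟨⟨d, d * (star S * S), by rw [← mul_assoc, dd], d1⟩, rfl⟩
  refine ⟨d, ?_, ?_, cm⟩
  · obtain ⟨U, hU⟩ := hS.mul hd
    refine ⟨u1, ?_⟩
    rw [← hU] at u1 ⊢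
    rw [Units.eq_inv_of_mul_eq_one_right u1, Units.mul_inv]
  · have k1 : d * d - 1 = -(d * d * (star S * S - 1)) := by
      rw [mul_sub, dd, mul_one, neg_sub]
    have k2 : ‖d * d - 1‖ ≤ ‖d * d‖ * (3 * ε) := by
      rw [k1, norm_neg]
      exact (norm_mul_le _ _).trans (mul_le_mul_of_nonneg_left h1 (norm_nonneg _))
    have k3 := norm_add_le (d * d - 1) 1
    rw [sub_add_cancel] at k3
    have k4 : ‖d * d‖ ≤ 2 := by nlinarith [norm_nonneg (d * d)]
    have k5 : ‖d - 1‖ ≤ 6 * ε := by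
      refine ContinuousLinearMap.opNorm_le_bound _ (by positivity) fun v => ?_
      refine (low_of_le (T := d + 1) (le_add_of_nonneg_left d0) _).trans ?_
      rw [← ContinuousLinearMap.mul_apply, show (d + 1) * (d - 1) = d * d - 1 by noncomm_ring]
      refine ((d * d - 1).le_opNorm v).trans (mul_le_mul_of_nonneg_right ?_ (norm_nonneg _))
      nlinarith
    have e : S * d - 1 = S * (d - 1) + (S - 1) := by noncomm_ring
    have k6 := (norm_mul_le S (d - 1)).trans (mul_le_mul nS k5 (norm_nonneg _) (by linarith))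
    rw [e]
    refine (norm_add_le _ _).trans ?_
    nlinarith

theorem inter_u (ι θ : A →⋆ₐ[ℂ] (H →L[ℂ] H)) {η : ℝ} (hη : 0 < η)
    (hη' : 4 * (K2 3 + 1) ^ 2 * η ≤ 1 / 10) (h : ∀ x, ‖θ x - ι x‖ ≤ η * ‖x‖) :
    ∃ u ∈ unitary (H →L[ℂ] H), ‖u - 1‖ ≤ 10 * (4 * (K2 3 + 1) ^ 2 * η) ∧
      ∀ x, θ x = u * ι x * star u := by
  obtain ⟨S, S1, S2⟩ := inter ι θ hη h
  obtain ⟨d, d1, d2, d3⟩ := polar hη' S1
  refine ⟨S * d, d1, d2, fun x => ?_⟩
  have c : Commute (star S * S) (ι x) := by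
    have e := congrArg star (S2 (star x))
    rw [star_mul, star_mul, ← map_star, ← map_star, star_star] at e
    rw [Commute, SemiconjBy, mul_assoc, ← S2, ← mul_assoc, e, mul_assoc]
  rw [mul_assoc S, (d3 _ c).eq, ← mul_assoc, ← S2, mul_assoc (θ x), mul_assoc (θ x), d1.2, mul_one]

end Vale.Agent.P096H
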