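import Vale.Agent.P096H.Newt

/-! From a linear map to an isomorphism. -/

namespace Vale.Agent.P096H

open Vale.Agent.P082

variable {A B C : Type*} [CStarAlgebra A] [CStarAlgebra B] [CStarAlgebra C]

theorem surj_of_near (i : A →⋆ₐ[ℂ] C) (j : B →⋆ₐ[ℂ] C) (hj : ∀ y, ‖j y‖ = ‖y‖) (Ψ : A →ₗ[ℂ] B)
    {δ : ℝ} (h0 : 0 ≤ δ) (hδ : δ ≤ 1 / 8) (h1 : ∀ x, ‖j (Ψ x) - i x‖ ≤ δ * ‖x‖)
    (h2 : ∀ y : B, ∃ x : A, ‖j y - i x‖ ≤ δ * ‖y‖ ∧ ‖x‖ ≤ ‖y‖) (u : ∀ x, ‖Ψ x‖ ≤ 2 * ‖x‖)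
    (l : ∀ x, ‖x‖ ≤ 2 * ‖Ψ x‖) : Function.Surjective Ψ := by
  have hc : IsClosed (LinearMap.range Ψ : Set B) :=
    ((Ψ.mkContinuous 2 u).antilipschitz_of_bound (K := 2) l).isClosed_range
      (Ψ.mkContinuous 2 u).uniformContinuous
  by_contra hs
  obtain ⟨y, hy, h⟩ := riesz_lemma hc (not_forall.1 hs) (show (1 / 2 : ℝ) < 1 by norm_num)
  obtain ⟨x, x1, x2⟩ := h2 y
  have e1 := h _ ⟨x, rfl⟩
  have e2 := norm_sub_le (j y - i x) (j (Ψ x) - i x)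
  rw [sub_sub_sub_cancel_right, ← map_sub, hj] at e2
  have e3 : 0 < ‖y‖ := norm_pos_iff.2 fun e => hy (e ▸ zero_mem _)
  have e4 := mul_le_mul_of_nonneg_left x2 h0
  nlinarith [h1 x]

variable {H : Type*} [NormedAddCommGroup H] [InnerProductSpace ℂ H] [CompleteSpace H] [VN A H]
variable [PartialOrder A] [StarOrderedRing A]

include H

theorem iso (i : A →⋆ₐ[ℂ] C) (j : B →⋆ₐ[ℂ] C) (hi : ∀ x, ‖i x‖ = ‖x‖) (hj : ∀ y, ‖j y‖ = ‖y‖)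
    (Ψ : A →ₗ[ℂ] B) (hs : ∀ x, Ψ (star x) = star (Ψ x)) {δ : ℝ} (h0 : 0 ≤ δ)
    (hδ : δ ≤ 1 / 10 ^ 19) (h1 : ∀ x, ‖j (Ψ x) - i x‖ ≤ δ * ‖x‖)
    (h2 : ∀ y : B, ∃ x : A, ‖j y - i x‖ ≤ δ * ‖y‖ ∧ ‖x‖ ≤ ‖y‖) :
    ∃ θ : A →⋆ₐ[ℂ] B, Function.Surjective θ ∧ ∀ x, ‖j (θ x) - i x‖ ≤ 10 ^ 10 * δ * ‖x‖ := by
  have hd : ∀ x : A, δ * ‖x‖ ≤ 1 / 2 * ‖x‖ := fun x =>
    mul_le_mul_of_nonneg_right (by linarith) (norm_nonneg _)
  have u : ∀ x, ‖Ψ x‖ ≤ 2 * ‖x‖ := fun x => by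
    have := norm_add_le (j (Ψ x) - i x) (i x)
    rw [sub_add_cancel, hj, hi] at this
    linarith [h1 x, hd x, norm_nonneg x]
  have l : ∀ x, ‖x‖ ≤ 2 * ‖Ψ x‖ := fun x => by
    have := norm_sub_le (j (Ψ x)) (j (Ψ x) - i x)
    rw [sub_sub_cancel, hj, hi] at this
    linarith [h1 x, hd x]
  have sj := surj_of_near i j hj Ψ h0 (by linarith) h1 h2 u l
  have inj : Function.Injective Ψ := (injective_iff_map_eq_zero Ψ).2 fun x hx => by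
    have := l x
    rwa [hx, norm_zero, mul_zero, norm_le_zero_iff] at this
  let R := (LinearEquiv.ofBijective Ψ ⟨inj, sj⟩).symm
  have R1 : ∀ y, Ψ (R y) = y := (LinearEquiv.ofBijective Ψ ⟨inj, sj⟩).apply_symm_apply
  have P : Prd (fun x y => R (Ψ x * Ψ y)) (8 * δ) := ⟨⟨fun y =>
      (R.toLinearMap ∘ₗ LinearMap.mulRight ℂ (Ψ y) ∘ₗ Ψ).isLinear, fun x =>
      (R.toLinearMap ∘ₗ LinearMap.mulLeft ℂ (Ψ x) ∘ₗ Ψ).isLinear⟩,
    fun x y z => by simp only [R1, mul_assoc], fun x y => inj (by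
      rw [hs, R1, R1, hs, hs, star_mul]), fun x y => by
      refine (l _).trans ?_
      have e : j (Ψ (R (Ψ x * Ψ y) - x * y)) = (j (Ψ x) - i x) * j (Ψ y) +
          i x * (j (Ψ y) - i y) - (j (Ψ (x * y)) - i (x * y)) := by
        rw [map_sub, R1, map_sub, map_mul, map_mul i]
        noncomm_ring
      have k1 := (norm_mul_le (j (Ψ x) - i x) (j (Ψ y))).trans
        (mul_le_mul (h1 x) ((hj _).trans_le (u y)) (norm_nonneg _) (by positivity))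
      have k2 := (norm_mul_le (i x) (j (Ψ y) - i y)).trans
        (mul_le_mul (hi x).le (h1 y) (norm_nonneg _) (norm_nonneg _))
      have k3 := (h1 (x * y)).trans (mul_le_mul_of_nonneg_left (norm_mul_le x y) h0)
      have k4 := norm_sub_le_of_le (norm_add_le_of_le k1 k2) k3
      rw [← e, hj] at k4
      linarith⟩
  obtain ⟨T, T1, T2, T3⟩ := newt P (by positivity) (by linarith)
  obtain ⟨S, S1, -⟩ := exists_inv (T1.trans (by linarith) : ‖T - 1‖ ≤ 1 / 2)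
  have m : ∀ x y, Ψ (T (x * y)) = Ψ (T x) * Ψ (T y) := fun x y => by rw [← T3, R1]
  have s : ∀ y, ∃ x, Ψ (T x) = y := fun y => ⟨S (R y), by rw [S1, R1]⟩
  have o : Ψ (T 1) = 1 := by
    obtain ⟨x, hx⟩ := s 1
    have := m 1 x
    rwa [one_mul, hx, mul_one, eq_comm] at this
  refine ⟨⟨AlgHom.ofLinearMap (Ψ ∘ₗ T.toLinearMap) o m, fun x => ?_⟩, s, fun x => ?_⟩
  · change Ψ (T (star x)) = star (Ψ (T x))
    rw [T2, hs]
  · change ‖j (Ψ (T x)) - i x‖ ≤ _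
    have k1 : ‖T x - x‖ ≤ 8 * 10 ^ 8 * (8 * δ) * ‖x‖ :=
      ((T - 1).le_opNorm x).trans (mul_le_mul_of_nonneg_right T1 (norm_nonneg _))
    have k2 := norm_add_le (T x - x) x
    rw [sub_add_cancel] at k2
    have k3 := norm_add_le (j (Ψ (T x)) - i (T x)) (i (T x - x))
    rw [hi, map_sub, sub_add_sub_cancel] at k3
    have k4 : δ * ‖x‖ ≤ 1 / 10 ^ 19 * ‖x‖ := mul_le_mul_of_nonneg_right hδ (norm_nonneg _)
    have k5 : ‖T x‖ ≤ 2 * ‖x‖ := by linarith [norm_nonneg x]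
    have k6 := (h1 (T x)).trans (mul_le_mul_of_nonneg_left k5 h0)
    have k7 : 0 ≤ δ * ‖x‖ := by positivity
    linarith

end Vale.Agent.P096H
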