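import Vale.Agent.P096H.Iso
import Vale.Agent.P096H.Inter
import Vale.Agent.P096H.Defs

/-! The perturbation theorems. -/

namespace Vale.Agent.P096H

open Vale.Agent.P082 Vale.Agent.P104 Metric

variable {H : Type*} [NormedAddCommGroup H] [InnerProductSpace ℂ H] [CompleteSpace H]

theorem kk_comm (M N : VonNeumannAlgebra H) : kk M N = kk N M := hausdorffDist_comm

theorem kk_nonneg (M N : VonNeumannAlgebra H) : 0 ≤ kk M N := hausdorffDist_nonneg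

theorem ball_ne (M : VonNeumannAlgebra H) : {x : H →L[ℂ] H | x ∈ M ∧ ‖x‖ ≤ 1}.Nonempty :=
  ⟨0, zero_mem _, by simp⟩

theorem ball_bdd (M : VonNeumannAlgebra H) :
    Bornology.IsBounded {x : H →L[ℂ] H | x ∈ M ∧ ‖x‖ ≤ 1} :=
  (isBounded_closedBall (x := 0) (r := 1)).subset fun _ h => mem_closedBall_zero_iff.2 h.2

theorem smul_mem' {M : VonNeumannAlgebra H} (c : ℂ) {x : H →L[ℂ] H} (h : x ∈ M) : c • x ∈ M :=
  M.toStarSubalgebra.smul_mem h c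

theorem near {M N : VonNeumannAlgebra H} {r : ℝ} (h : kk M N < r) {x : H →L[ℂ] H} (hx : x ∈ M) :
    ∃ y ∈ N, ‖x - y‖ ≤ r * ‖x‖ ∧ ‖y‖ ≤ ‖x‖ := by
  rcases eq_or_ne x 0 with rfl | h0
  · exact ⟨0, zero_mem _, by simp, le_rfl⟩
  have hn : 0 < ‖x‖ := norm_pos_iff.2 h0
  have hc : (‖x‖ : ℂ) ≠ 0 := by exact_mod_cast hn.ne'
  have nc : ‖(‖x‖ : ℂ)‖ = ‖x‖ := by rw [Complex.norm_real, norm_norm]
  have m : (‖x‖ : ℂ)⁻¹ • x ∈ {x : H →L[ℂ] H | x ∈ M ∧ ‖x‖ ≤ 1} :=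
    ⟨smul_mem' _ hx, by rw [norm_smul, norm_inv, nc, inv_mul_cancel₀ hn.ne']⟩
  obtain ⟨y, ⟨y1, y2⟩, y3⟩ := exists_dist_lt_of_hausdorffDist_lt m h
    (hausdorffEDist_ne_top_of_nonempty_of_bounded (ball_ne M) (ball_ne N) (ball_bdd M)
      (ball_bdd N))
  refine ⟨(‖x‖ : ℂ) • y, smul_mem' _ y1, ?_, ?_⟩
  · have e : x - (‖x‖ : ℂ) • y = (‖x‖ : ℂ) • ((‖x‖ : ℂ)⁻¹ • x - y) := by
      rw [smul_sub, smul_inv_smul₀ hc]
    rw [e, norm_smul, nc, ← dist_eq_norm, mul_comm]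
    exact mul_le_mul_of_nonneg_right y3.le hn.le
  · rw [norm_smul, nc]
    exact mul_le_of_le_one_right hn.le y2

theorem comm_near {M N : VonNeumannAlgebra H} {r : ℝ} (h : kk N M < r) {T : H →L[ℂ] H}
    (hT : T ∈ M.commutant) (h1 : ‖T‖ ≤ 1) :
    ∃ S, (S ∈ N.commutant ∧ ‖S‖ ≤ 1) ∧ ‖T - S‖ ≤ 16 * (K2 3 + 1) ^ 2 * r := by
  have hr : 0 < r := (kk_nonneg _ _).trans_lt h
  have hc : ((2 * r : ℝ) : ℂ) ≠ 0 := by exact_mod_cast (by positivity : 2 * r ≠ 0)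
  have nc : ‖((2 * r : ℝ) : ℂ)‖ = 2 * r := by
    rw [Complex.norm_real, Real.norm_of_nonneg (by positivity)]
  let ι := N.toStarSubalgebra.subtype
  obtain ⟨Y, nY, hY⟩ := der ι ι (((2 * r : ℝ) : ℂ)⁻¹ • ((LinearMap.mulRight ℂ T -
    LinearMap.mulLeft ℂ T) ∘ₗ ι.toAlgHom.toLinearMap)) (fun x y => by
      change ((2 * r : ℝ) : ℂ)⁻¹ • (ι (x * y) * T - T * ι (x * y)) =
        ι x * (((2 * r : ℝ) : ℂ)⁻¹ • (ι y * T - T * ι y)) +
          (((2 * r : ℝ) : ℂ)⁻¹ • (ι x * T - T * ι x)) * ι y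
      simp only [map_mul, mul_smul_comm, smul_mul_assoc, mul_sub, sub_mul, mul_assoc]
      module) fun x => by
      change ‖((2 * r : ℝ) : ℂ)⁻¹ • ((x : H →L[ℂ] H) * T - T * x)‖ ≤ ‖(x : H →L[ℂ] H)‖
      rw [norm_smul, norm_inv, nc, inv_mul_le_iff₀ (by positivity)]
      obtain ⟨y, y1, y2, -⟩ := near h x.2
      have e : (x : H →L[ℂ] H) * T - T * x = (x - y) * T - T * (x - y) := by
        rw [sub_mul, mul_sub, VonNeumannAlgebra.mem_commutant_iff.1 hT y y1]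
        abel
      have a1 := (norm_mul_le ((x : H →L[ℂ] H) - y) T).trans
        (mul_le_of_le_one_right (norm_nonneg _) h1)
      have a2 := (norm_mul_le T ((x : H →L[ℂ] H) - y)).trans
        (mul_le_of_le_one_left (norm_nonneg _) h1)
      rw [e]
      linarith [norm_sub_le (((x : H →L[ℂ] H) - y) * T) (T * (x - y))]
  obtain ⟨Z, nZ, hZ⟩ : ∃ Z : H →L[ℂ] H, ‖Z‖ ≤ 8 * (K2 3 + 1) ^ 2 * r ∧ T - Z ∈ N.commutant := by
    refine ⟨((2 * r : ℝ) : ℂ) • Y, ?_, VonNeumannAlgebra.mem_commutant_iff.2 fun g hg => ?_⟩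
    · rw [norm_smul, nc]
      nlinarith
    · have e : ((2 * r : ℝ) : ℂ)⁻¹ • (g * T - T * g) = g * Y - Y * g := hY ⟨g, hg⟩
      rw [inv_smul_eq_iff₀ hc, sub_eq_iff_eq_add] at e
      simp only [mul_sub, sub_mul, mul_smul_comm, smul_mul_assoc, e]
      module
  have z0 := norm_nonneg Z
  have p : 0 < 1 + ‖Z‖ := by positivity
  have hc' : ((1 + ‖Z‖ : ℝ) : ℂ) ≠ 0 := by exact_mod_cast p.ne'
  have nc' : ‖((1 + ‖Z‖ : ℝ) : ℂ)⁻¹‖ = (1 + ‖Z‖)⁻¹ := by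
    rw [norm_inv, Complex.norm_real, Real.norm_of_nonneg p.le]
  refine ⟨((1 + ‖Z‖ : ℝ) : ℂ)⁻¹ • (T - Z), ⟨smul_mem' _ hZ, ?_⟩, ?_⟩
  · rw [norm_smul, nc', inv_mul_le_iff₀ p]
    linarith [norm_sub_le T Z]
  · have e : T - ((1 + ‖Z‖ : ℝ) : ℂ)⁻¹ • (T - Z) =
        ((1 + ‖Z‖ : ℝ) : ℂ)⁻¹ • (((‖Z‖ : ℝ) : ℂ) • T + Z) := by
      rw [eq_inv_smul_iff₀ hc', smul_sub, smul_inv_smul₀ hc']
      push_cast
      module
    have a := norm_add_le (((‖Z‖ : ℝ) : ℂ) • T) Z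
    rw [norm_smul, Complex.norm_real, norm_norm] at a
    rw [e, norm_smul, nc', inv_mul_le_iff₀ p]
    nlinarith [mul_le_of_le_one_right z0 h1, mul_nonneg z0 (z0.trans nZ)]

theorem kk_commutant (M N : VonNeumannAlgebra H) :
    kk M.commutant N.commutant ≤ 16 * (K2 3 + 1) ^ 2 * kk M N := by
  refine le_of_forall_pos_le_add fun ε hε => ?_
  have p : 0 < 16 * (K2 3 + 1) ^ 2 + 1 := by positivity
  have q : 0 < ε / (16 * (K2 3 + 1) ^ 2 + 1) := by positivity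
  have h : kk M N < kk M N + ε / (16 * (K2 3 + 1) ^ 2 + 1) := lt_add_of_pos_right _ q
  have k := kk_nonneg M N
  have b : 16 * (K2 3 + 1) ^ 2 * (kk M N + ε / (16 * (K2 3 + 1) ^ 2 + 1)) ≤
      16 * (K2 3 + 1) ^ 2 * kk M N + ε := by
    have := mul_div_cancel₀ ε p.ne'
    nlinarith
  refine le_trans (hausdorffDist_le_of_mem_dist (by positivity) ?_ ?_) b
  · intro T hT
    obtain ⟨S, S1, S2⟩ := comm_near ((kk_comm N M).trans_lt h) hT.1 hT.2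
    exact ⟨S, S1, by rwa [dist_eq_norm]⟩
  · intro T hT
    obtain ⟨S, S1, S2⟩ := comm_near h hT.1 hT.2
    exact ⟨S, S1, by rwa [dist_eq_norm]⟩

/-- conjugacy by a unitary -/
def Conj (u : H →L[ℂ] H) (M N : VonNeumannAlgebra H) : Prop :=
  ∀ y, y ∈ N ↔ ∃ x ∈ M, u * x * star u = y

theorem core {M N : VonNeumannAlgebra H} {δ : ℝ} (hδ : δ ≤ 1 / 10 ^ 19)
    (hδ' : 4 * (K2 3 + 1) ^ 2 * (10 ^ 10 * δ) ≤ 1 / 10) (h : kk M N < δ) (hl : LinNear δ M N) :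
    ∃ u ∈ unitary (H →L[ℂ] H), Conj u M N ∧
      ‖u - 1‖ ≤ 10 * (4 * (K2 3 + 1) ^ 2 * (10 ^ 10 * δ)) := by
  have h0 : 0 < δ := (kk_nonneg _ _).trans_lt h
  obtain ⟨Φ, Φ1, Φ2⟩ := hl
  let Ψ : M.toStarSubalgebra →ₗ[ℂ] N.toStarSubalgebra :=
    { toFun := fun x => ⟨(1 / 2 : ℂ) • (Φ x + star (Φ (star x))),
        smul_mem' _ (add_mem (Φ1 _) (star_mem (Φ1 _)))⟩
      map_add' := fun x y => Subtype.ext (by
        change (1 / 2 : ℂ) • (Φ (x + y) + star (Φ (star (x + y)))) =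
          (1 / 2 : ℂ) • (Φ x + star (Φ (star x))) + (1 / 2 : ℂ) • (Φ y + star (Φ (star y)))
        simp only [star_add, map_add]
        module)
      map_smul' := fun c x => Subtype.ext (by
        change (1 / 2 : ℂ) • (Φ (c • x) + star (Φ (star (c • x)))) =
          c • (1 / 2 : ℂ) • (Φ x + star (Φ (star x)))
        simp only [star_smul, map_smul, star_star]
        module) }
  obtain ⟨θ, θ1, θ2⟩ := iso (H := H) M.toStarSubalgebra.subtype N.toStarSubalgebra.subtype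
    (fun _ => rfl) (fun _ => rfl) Ψ (fun x => Subtype.ext (by
      change (1 / 2 : ℂ) • (Φ (star x) + star (Φ (star (star x)))) =
        star ((1 / 2 : ℂ) • (Φ x + star (Φ (star x))))
      simp [star_smul, add_comm])) h0.le hδ (fun x => by
      change ‖(1 / 2 : ℂ) • (Φ x + star (Φ (star x))) - (x : H →L[ℂ] H)‖ ≤ δ * ‖(x : H →L[ℂ] H)‖
      have e : (1 / 2 : ℂ) • (Φ x + star (Φ (star x))) - (x : H →L[ℂ] H) = (1 / 2 : ℂ) •
          ((Φ x - x) + star (Φ (star x) - ((star x : M.toStarSubalgebra) : H →L[ℂ] H))) := by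
        rw [star_sub, StarMemClass.coe_star, star_star]
        module
      have a := norm_add_le (Φ x - x)
        (star (Φ (star x) - ((star x : M.toStarSubalgebra) : H →L[ℂ] H)))
      have b := Φ2 (star x)
      rw [norm_star] at a
      rw [StarMemClass.coe_star, norm_star] at b
      rw [StarMemClass.coe_star] at a
      rw [e, norm_smul, StarMemClass.coe_star]
      have c : ‖(1 / 2 : ℂ)‖ = 1 / 2 := by simp
      rw [c]
      linarith [Φ2 x]) fun y => by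
      obtain ⟨x, x1, x2, x3⟩ := near ((kk_comm N M).trans_lt h) y.2
      exact ⟨⟨x, x1⟩, x2, x3⟩
  obtain ⟨u, u1, u2, u3⟩ := inter_u M.toStarSubalgebra.subtype
    (N.toStarSubalgebra.subtype.comp θ) (η := 10 ^ 10 * δ) (by positivity) hδ' θ2
  refine ⟨u, u1, fun y => ⟨fun hy => ?_, ?_⟩, u2⟩
  · obtain ⟨x, hx⟩ := θ1 ⟨y, hy⟩
    exact ⟨x, x.2, (u3 x).symm.trans (congrArg Subtype.val hx)⟩
  · rintro ⟨x, hx, rfl⟩
    have e : (θ ⟨x, hx⟩ : H →L[ℂ] H) = u * x * star u := u3 ⟨x, hx⟩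
    rw [← e]
    exact (θ ⟨x, hx⟩).2

theorem compl_lin {M N : VonNeumannAlgebra H} {K r : ℝ} (h : kk M N < r) (hc : Compl K M N) :
    LinNear ((|K| + 1) * r) M N := by
  obtain ⟨L, E, hM, hN, h1, h2, h3⟩ := hc
  refine ⟨E ∘ₗ LinearMap.codRestrict L M.toStarSubalgebra.subtype.toAlgHom.toLinearMap
    (fun x => hM x x.2), fun x => h1 _, fun x => ?_⟩
  obtain ⟨y, hy, hxy, -⟩ := near h x.2
  change ‖E ⟨x, hM x x.2⟩ - (x : H →L[ℂ] H)‖ ≤ (|K| + 1) * r * ‖(x : H →L[ℂ] H)‖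
  have e : E ⟨x, hM x x.2⟩ - (x : H →L[ℂ] H) =
      E (⟨x, hM x x.2⟩ - ⟨y, hN y hy⟩) - ((x : H →L[ℂ] H) - y) := by
    rw [map_sub, h2 ⟨y, hN y hy⟩ hy]
    abel
  have a1 : ‖E (⟨x, hM x x.2⟩ - ⟨y, hN y hy⟩)‖ ≤ K * ‖(x : H →L[ℂ] H) - y‖ := h3 _
  have a2 := mul_le_mul (le_abs_self K) hxy (norm_nonneg _) (abs_nonneg K)
  rw [e]
  refine (norm_sub_le _ _).trans ?_
  linarith

theorem conj_comm {M N : VonNeumannAlgebra H} {u : H →L[ℂ] H} (hu : u ∈ unitary (H →L[ℂ] H))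
    (h : Conj u M N) : Conj u M.commutant N.commutant := by
  intro y
  have c1 : ∀ a : H →L[ℂ] H, u * (star u * a) = a := fun a => by rw [← mul_assoc, hu.2, one_mul]
  have c2 : ∀ a : H →L[ℂ] H, star u * (u * a) = a := fun a => by rw [← mul_assoc, hu.1, one_mul]
  constructor
  · intro hy
    refine ⟨star u * y * u, VonNeumannAlgebra.mem_commutant_iff.2 fun g hg => ?_, ?_⟩
    · have := congrArg (fun z => star u * z * u)
        (VonNeumannAlgebra.mem_commutant_iff.1 hy _ ((h _).2 ⟨g, hg, rfl⟩))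
      simpa only [mul_assoc, c1, c2, hu.1, mul_one] using this
    · simp only [mul_assoc, c1, hu.2, mul_one]
  · rintro ⟨x, hx, rfl⟩
    refine VonNeumannAlgebra.mem_commutant_iff.2 fun g hg => ?_
    obtain ⟨a, ha, rfl⟩ := (h g).1 hg
    have := congrArg (fun z => u * z * star u) (VonNeumannAlgebra.mem_commutant_iff.1 hx a ha)
    simpa only [mul_assoc, c1, c2] using this

theorem conj_symm {M N : VonNeumannAlgebra H} {u : H →L[ℂ] H} (hu : u ∈ unitary (H →L[ℂ] H))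
    (h : Conj u M N) : Conj (star u) N M := by
  have c2 : ∀ a : H →L[ℂ] H, star u * (u * a) = a := fun a => by rw [← mul_assoc, hu.1, one_mul]
  intro x
  rw [star_star]
  constructor
  · intro hx
    exact ⟨_, (h _).2 ⟨x, hx, rfl⟩, by simp only [mul_assoc, c2, hu.1, mul_one]⟩
  · rintro ⟨y, hy, rfl⟩
    obtain ⟨a, ha, rfl⟩ := (h y).1 hy
    simpa only [mul_assoc, c2, hu.1, mul_one] using ha

theorem lin_mono {M N : VonNeumannAlgebra H} {a b : ℝ} (h : a ≤ b) (hl : LinNear a M N) :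
    LinNear b M N :=
  hl.imp fun _ h' => ⟨h'.1, fun x => (h'.2 x).trans (mul_le_mul_of_nonneg_right h (norm_nonneg _))⟩

theorem small {ε : ℝ} (hε : 0 < ε) : ∃ γ : ℝ, 0 < γ ∧ γ ≤ 1 / 10 ^ 19 ∧
    4 * (K2 3 + 1) ^ 2 * (10 ^ 10 * γ) ≤ 1 / 10 ∧
      10 * (4 * (K2 3 + 1) ^ 2 * (10 ^ 10 * γ)) < ε := by
  obtain ⟨r, r0, r1, r2⟩ : ∃ r : ℝ, 0 < r ∧ r ≤ 1 / 10 ^ 10 ∧ 10 * r < ε :=
    ⟨min (1 / 10 ^ 10) (ε / 20), by positivity, min_le_left _ _, by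
      linarith [min_le_right (1 / 10 ^ 10 : ℝ) (ε / 20)]⟩
  have p : 0 ≤ 4 * (K2 3 + 1) ^ 2 := by positivity
  obtain ⟨g, g0, e⟩ : ∃ g : ℝ, 0 < g ∧ (4 * (K2 3 + 1) ^ 2 + 1) * (10 ^ 10 * g) = r :=
    ⟨r / (10 ^ 10 * (4 * (K2 3 + 1) ^ 2 + 1)), by positivity, by field_simp⟩
  have := mul_nonneg p g0.le
  exact ⟨g, g0, by nlinarith, by nlinarith, by nlinarith⟩

end Vale.Agent.P096H
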