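import Vale.Agent.P096H.Q

/-! Stability of the product. -/

namespace Vale.Agent.P096H

open Finset Filter Topology Vale.Agent.P082

variable {A : Type*} [CStarAlgebra A]

/-- associative symmetric products close to the given one -/
structure Prd (μ : A → A → A) (α : ℝ) : Prop where
  bil : Bil μ
  assoc : ∀ x y z, μ (μ x y) z = μ x (μ y z)
  st : ∀ x y, star (μ x y) = μ (star y) (star x)
  near : ∀ x y, ‖μ x y - x * y‖ ≤ α * (‖x‖ * ‖y‖)

theorem lower {S : A →L[ℂ] A} (h : ‖S - 1‖ ≤ 1 / 2) (x : A) : ‖x‖ ≤ 2 * ‖S x‖ := by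
  have h1 : ‖S x - x‖ ≤ 1 / 2 * ‖x‖ := ((S - 1).le_opNorm x).trans
    (mul_le_mul_of_nonneg_right h (norm_nonneg _))
  have h2 := norm_sub_le (S x) (S x - x)
  rw [sub_sub_cancel] at h2
  linarith

theorem exists_inv {S : A →L[ℂ] A} (h : ‖S - 1‖ ≤ 1 / 2) :
    ∃ R : A →L[ℂ] A, (∀ x, S (R x) = x) ∧ ∀ x, R (S x) = x := by
  have h1 : ‖1 - S‖ < 1 := by rw [norm_sub_rev]; linarith
  have e : ((Units.oneSub (1 - S) h1 : (A →L[ℂ] A)ˣ) : A →L[ℂ] A) = S := by simp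
  refine ⟨↑(Units.oneSub (1 - S) h1)⁻¹, fun x => ?_, fun x => ?_⟩
  · have := congrArg (fun T : A →L[ℂ] A => T x) (Units.oneSub (1 - S) h1).mul_inv
    rwa [e] at this
  · have := congrArg (fun T : A →L[ℂ] A => T x) (Units.oneSub (1 - S) h1).inv_mul
    rwa [e] at this

variable {H : Type*} [NormedAddCommGroup H] [InnerProductSpace ℂ H] [CompleteSpace H] [VN A H]
variable [PartialOrder A] [StarOrderedRing A]

include H

theorem newt_step {μ : A → A → A} {α : ℝ} (h : Prd μ α) (h0 : 0 ≤ α) (h1 : α ≤ 1 / 10 ^ 18) :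
    ∃ (S : A →L[ℂ] A) (ν : A → A → A), ‖S - 1‖ ≤ 2 * 10 ^ 8 * α ∧ (∀ x, S (star x) = star (S x)) ∧
      Prd ν (α / 2) ∧ ∀ x y, μ (S x) (S y) = S (ν x y) := by
  have hb : Bil fun x y => μ x y - x * y :=
    ⟨fun y => lin_sub (h.bil.1 y) (lin_rmul lin_id y), fun x => lin_sub (h.bil.2 x)
      (lin_lmul lin_id x)⟩
  obtain ⟨a, ha⟩ : ∃ a : A → A → A, a = fun x y => μ x y - x * y := ⟨_, rfl⟩
  have hμ : ∀ x y, μ x y = x * y + a x y := fun x y => by rw [ha]; simp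
  have hn : ∀ x y, ‖a x y‖ ≤ α * (‖x‖ * ‖y‖) := ha ▸ h.near
  rw [← ha] at hb
  obtain ⟨b, b1, b2, b3⟩ := quant_star hb (fun x y => by rw [ha]; simp [h.st]) h0
    (show 0 ≤ 2 * α ^ 2 by positivity) hn fun x y z => by
      have e := h.assoc x y z
      rw [hμ (μ x y), hμ x (μ y z), hμ x y, hμ y z, (hb.1 z).map_add, (hb.2 x).map_add] at e
      have e2 : x * a y z - a (x * y) z + a x (y * z) - a x y * z =
          a (a x y) z - a x (a y z) := by
        rw [add_mul, mul_add, mul_assoc, ← sub_eq_zero] at e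
        rw [← sub_eq_zero, ← neg_eq_zero, ← e]
        abel
      rw [e2]
      have k1 := (hn (a x y) z).trans (mul_le_mul_of_nonneg_left
        (mul_le_mul_of_nonneg_right (hn x y) (norm_nonneg z)) h0)
      have k2 := (hn x (a y z)).trans (mul_le_mul_of_nonneg_left
        (mul_le_mul_of_nonneg_left (hn y z) (norm_nonneg x)) h0)
      refine (norm_sub_le _ _).trans ?_
      linarith
  have hβ : ‖b‖ ≤ 2 * 10 ^ 8 * α := b2.trans (by nlinarith)
  have hS : ‖(1 - b) - 1‖ ≤ 2 * 10 ^ 8 * α := by rwa [sub_sub_cancel_left, norm_neg]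
  have hS2 : ‖(1 - b) - 1‖ ≤ 1 / 2 := hS.trans (by linarith)
  obtain ⟨R, R1, R2⟩ := exists_inv hS2
  have Ss : ∀ x, (1 - b) (star x) = star ((1 - b) x) := fun x => by
    simp [b1]
  have Rs : ∀ x, R (star x) = star (R x) := fun x => by
    conv_lhs => rw [← R1 x, ← Ss, R2]
  refine ⟨1 - b, fun x y => R (μ ((1 - b) x) ((1 - b) y)), hS, Ss, ⟨⟨fun y => ?_, fun x => ?_⟩,
    fun x y z => ?_, fun x y => ?_, fun x y => ?_⟩, fun x y => (R1 _).symm⟩
  · exact lin_comp R.isLinear (lin_comp (h.bil.1 _) (1 - b).isLinear)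
  · exact lin_comp R.isLinear (lin_comp (h.bil.2 _) (1 - b).isLinear)
  · simp only [R1, h.assoc]
  · rw [← Rs, h.st, Ss, Ss]
  · refine (lower hS2 _).trans ?_
    have e : (1 - b) (R (μ ((1 - b) x) ((1 - b) y)) - x * y) =
        (a x y - (x * b y - b (x * y) + b x * y)) + b x * b y - a (b x) y - a x (b y) +
          a (b x) (b y) := by
      rw [map_sub, R1, hμ]
      simp only [ContinuousLinearMap.sub_apply, ContinuousLinearMap.one_apply,
        (hb.1 _).map_sub, (hb.2 _).map_sub, sub_mul, mul_sub]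
      abel
    rw [e]
    have nx := norm_nonneg x
    have ny := norm_nonneg y
    have bx : ‖b x‖ ≤ 2 * 10 ^ 8 * α * ‖x‖ :=
      (b.le_opNorm x).trans (mul_le_mul_of_nonneg_right hβ nx)
    have bY : ‖b y‖ ≤ 2 * 10 ^ 8 * α * ‖y‖ :=
      (b.le_opNorm y).trans (mul_le_mul_of_nonneg_right hβ ny)
    have bb : ‖b x‖ * ‖b y‖ ≤ (2 * 10 ^ 8 * α) ^ 2 * (‖x‖ * ‖y‖) :=
      (mul_le_mul bx bY (norm_nonneg _) (by positivity)).trans_eq (by ring)
    have k1 := b3 x y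
    have k2 := (norm_mul_le (b x) (b y)).trans bb
    have k3 := (hn (b x) y).trans (mul_le_mul_of_nonneg_left
      (mul_le_mul_of_nonneg_right bx ny) h0)
    have k4 := (hn x (b y)).trans (mul_le_mul_of_nonneg_left
      (mul_le_mul_of_nonneg_left bY nx) h0)
    have k5 := (hn (b x) (b y)).trans (mul_le_mul_of_nonneg_left bb h0)
    have k6 : ‖a x y - (x * b y - b (x * y) + b x * y) + b x * b y - a (b x) y - a x (b y) +
        a (b x) (b y)‖ ≤ ‖a x y - (x * b y - b (x * y) + b x * y)‖ + ‖b x * b y‖ + ‖a (b x) y‖ +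
          ‖a x (b y)‖ + ‖a (b x) (b y)‖ :=
      norm_add_le_of_le (norm_sub_le_of_le (norm_sub_le_of_le (norm_add_le _ _) le_rfl) le_rfl)
        le_rfl
    have hP : 0 ≤ α * (‖x‖ * ‖y‖) := by positivity
    have k7 : α * (α * (‖x‖ * ‖y‖)) ≤ 1 / 10 ^ 18 * (α * (‖x‖ * ‖y‖)) :=
      mul_le_mul_of_nonneg_right h1 hP
    have k8 : α * (α * (α * (‖x‖ * ‖y‖))) ≤ α * (α * (‖x‖ * ‖y‖)) :=
      mul_le_of_le_one_left (by positivity) (by linarith)
    nlinarith

theorem newt {μ : A → A → A} {α : ℝ} (h : Prd μ α) (h0 : 0 ≤ α) (h1 : α ≤ 1 / 10 ^ 18) :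
    ∃ T : A →L[ℂ] A, ‖T - 1‖ ≤ 8 * 10 ^ 8 * α ∧ (∀ x, T (star x) = star (T x)) ∧
      ∀ x y, μ (T x) (T y) = T (x * y) := by
  let P : ℕ → (A →L[ℂ] A) × (A → A → A) → Prop := fun n p =>
    Prd p.2 (α / 2 ^ n) ∧ ‖p.1 - 1‖ ≤ 8 * 10 ^ 8 * α * (1 - 1 / 2 ^ n) ∧
      (∀ x, p.1 (star x) = star (p.1 x)) ∧ ∀ x y, μ (p.1 x) (p.1 y) = p.1 (p.2 x y)
  have hle : ∀ n : ℕ, α / 2 ^ n ≤ α := fun n => div_le_self h0 (one_le_pow₀ one_le_two)
  have hT2 : ∀ n p, P n p → ‖p.1‖ ≤ 2 := fun n p hp => by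
    have e1 := norm_add_le (p.1 - 1) 1
    rw [sub_add_cancel] at e1
    have e2 : ‖(1 : A →L[ℂ] A)‖ ≤ 1 := ContinuousLinearMap.norm_id_le
    have e3 : 8 * 10 ^ 8 * α * (1 - 1 / 2 ^ n) ≤ 8 * 10 ^ 8 * α :=
      mul_le_of_le_one_right (by positivity) (sub_le_self _ (by positivity))
    linarith [hp.2.1]
  have step : ∀ n p, P n p → ∃ q, P (n + 1) q ∧ ‖q.1 - p.1‖ ≤ 4 * 10 ^ 8 * α / 2 ^ n := by
    intro n p hp
    obtain ⟨S, ν, s1, s2, s3, s4⟩ := newt_step hp.1 (by positivity) ((hle n).trans h1)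
    have e : ‖p.1 * S - p.1‖ ≤ 4 * 10 ^ 8 * α / 2 ^ n := by
      rw [← mul_sub_one]
      refine (norm_mul_le _ _).trans ((mul_le_mul (hT2 n p hp) s1 (norm_nonneg _)
        zero_le_two).trans_eq (by ring))
    refine ⟨(p.1 * S, ν), ⟨by rw [pow_succ, ← div_div]; exact s3, ?_, fun x => ?_,
      fun x y => ?_⟩, e⟩
    · have e1 := norm_add_le (p.1 * S - p.1) (p.1 - 1)
      rw [sub_add_sub_cancel] at e1
      refine e1.trans ((add_le_add e hp.2.1).trans_eq ?_)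
      rw [pow_succ]
      field_simp
      ring
    · simp only [ContinuousLinearMap.mul_apply, s2, hp.2.2.1]
    · simp only [ContinuousLinearMap.mul_apply, hp.2.2.2, s4]
  have P0 : P 0 (1, μ) := ⟨by simpa using h, by simp, fun _ => rfl, fun _ _ => rfl⟩
  choose f hf using step
  let q : ∀ n, {p // P n p} := fun n =>
    Nat.rec ⟨(1, μ), P0⟩ (fun n p => ⟨f n p.1 p.2, (hf n p.1 p.2).1⟩) n
  have hq : ∀ n, dist (q n).1.1 (q (n + 1)).1.1 ≤ 8 * 10 ^ 8 * α / 2 / 2 ^ n := fun n => by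
    rw [dist_comm, dist_eq_norm]
    exact (hf n (q n).1 (q n).2).2.trans_eq (by ring)
  obtain ⟨T, hT⟩ := cauchySeq_tendsto_of_complete (cauchySeq_of_le_geometric_two hq)
  have hTx : ∀ x, Tendsto (fun n => (q n).1.1 x) atTop (𝓝 (T x)) := fun x =>
    ((ContinuousLinearMap.apply ℂ A x).continuous.tendsto T).comp hT
  refine ⟨T, ?_, fun x => ?_, fun x y => ?_⟩
  · refine le_of_tendsto' (hT.sub_const 1).norm fun n => (q n).2.2.1.trans ?_
    exact mul_le_of_le_one_right (by positivity) (sub_le_self _ (by positivity))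
  · refine tendsto_nhds_unique (hTx (star x)) ?_
    simp only [(q _).2.2.2.1]
    exact (hTx x).star
  · have hμ : ∀ x y, ‖μ x y‖ ≤ (1 + α) * ‖x‖ * ‖y‖ := fun x y => by
      have e1 := norm_add_le (μ x y - x * y) (x * y)
      rw [sub_add_cancel] at e1
      linarith [h.near x y, norm_mul_le x y]
    let B : A →L[ℂ] A →L[ℂ] A := LinearMap.mkContinuous₂ (LinearMap.mk₂ ℂ μ
      (fun x x' y => (h.bil.1 y).map_add x x') (fun c x y => (h.bil.1 y).map_smul c x)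
      (fun x y y' => (h.bil.2 x).map_add y y') fun c x y => (h.bil.2 x).map_smul c y) _ hμ
    have t1 : Tendsto (fun n => μ ((q n).1.1 x) ((q n).1.1 y)) atTop (𝓝 (μ (T x) (T y))) :=
      (B.continuous₂.tendsto (T x, T y)).comp ((hTx x).prodMk_nhds (hTx y))
    refine tendsto_nhds_unique t1 ?_
    simp only [(q _).2.2.2.2]
    have t2 : Tendsto (fun n => (q n).1.1 ((q n).1.2 x y) - (q n).1.1 (x * y)) atTop (𝓝 0) := by
      have t3 : Tendsto (fun n : ℕ => 2 * (α * (‖x‖ * ‖y‖)) * (1 / 2) ^ n) atTop (𝓝 0) := by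
        simpa using (tendsto_pow_atTop_nhds_zero_of_lt_one (r := (1 / 2 : ℝ)) (by norm_num)
          (by norm_num)).const_mul (2 * (α * (‖x‖ * ‖y‖)))
      refine squeeze_zero_norm (fun n => ?_) t3
      rw [← map_sub]
      refine ((q n).1.1.le_opNorm _).trans ((mul_le_mul (hT2 n _ (q n).2) ((q n).2.1.near x y)
        (norm_nonneg _) zero_le_two).trans_eq ?_)
      rw [one_div_pow]
      ring
    simpa using t2.add (hTx (x * y))

end Vale.Agent.P096H
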