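import Vale.Agent.P082.Prism

/-! Quantitative vanishing of the second and third cohomology. -/

namespace Vale.Agent.P096H

open Finset Vale.Agent.P082

/-- bilinear maps -/
def Bil {A : Type*} [Ring A] [Algebra ℂ A] (μ : A → A → A) : Prop :=
  (∀ y, IsLinearMap ℂ fun x => μ x y) ∧ ∀ x, IsLinearMap ℂ (μ x)

variable {A : Type*} [CStarAlgebra A]

theorem bdc_mono {F : List A → A} {C C' w w' : ℝ} (h : BdC F C w) (h1 : C ≤ C') (h2 : w ≤ w') :
    BdC F C' w' :=
  ⟨h.1.trans h1, h.2.1.trans h2, fun l => (h.2.2 l).trans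
    (mul_le_mul h1 (pn_mono h.w0 h2 l) (pn_nn h.w0 l) (h.1.trans h1))⟩

theorem DD_zero (m : List A) (F : List A → A) (h : ∀ l : List A, l.length + 1 = m.length → F l = 0) :
    DD m F = 0 := by
  induction m generalizing F with
  | nil => rfl
  | cons x m ih =>
    rw [DD_cons, ih (cs x F) fun l hl => h (x :: l) (by simp [hl])]
    cases m with
    | nil => rw [sh_nil, h [] rfl]; simp
    | cons w m => rw [sh_cons, h _ (by simp)]; simp

theorem dd_zero (m : List A) (F : List A → A) (h : ∀ l : List A, l.length + 1 = m.length → F l = 0) :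
    dd F m = 0 := by
  cases m with
  | nil => rfl
  | cons x m => rw [dd, DD_zero _ _ h, h m rfl]; simp

/-- a bilinear map as a cochain on lists -/
def lift2 (a : A → A → A) : List A → A
  | [x, y] => a x y
  | _ => 0

theorem lift2_zero (a : A → A → A) (l : List A) (h : l.length ≠ 2) : lift2 a l = 0 := by
  match l with
  | [] => rfl
  | [_] => rfl
  | [_, _] => exact absurd rfl h
  | _ :: _ :: _ :: _ => rfl

theorem lift2_lin {a : A → A → A} (h : Bil a) : Lin (lift2 a) := by
  intro l l'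
  by_cases hl : l.length + l'.length = 1
  · match l, l' with
    | [], [y] => exact h.1 y
    | [x], [] => exact h.2 x
    | [], [] => simp at hl
    | [], _ :: _ :: _ => simp at hl
    | [_], _ :: _ => simp at hl
    | _ :: _ :: _, _ => simp at hl; omega
  · have : ∀ x, lift2 a (l ++ x :: l') = 0 := fun x => lift2_zero a _ (by simp; omega)
    simp only [this]
    exact ⟨by simp, by simp⟩

variable {H : Type*} [NormedAddCommGroup H] [InnerProductSpace ℂ H] [CompleteSpace H] [VN A H]
variable [PartialOrder A] [StarOrderedRing A]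

include H

theorem coh_q {φ : List A → A} (h1 : Lin φ) (h2 : Co φ) {C w : ℝ} (h3 : BdC φ C w) :
    ∃ g, Lin g ∧ BdC g (41 * w ^ 2 * C) (12 * w) ∧ ∀ x l, φ (x :: l) = dd g (x :: l) := by
  obtain ⟨c, hc, c1, c2⟩ := decomp (A := A)
  obtain ⟨s, s1, s2⟩ := c1.seq hc
  have C0 := h3.1
  have w0 := h3.w0
  obtain ⟨g, ⟨g1, g2⟩, g3⟩ := fip (K := {g : Fn (List A) A | ∀ l, ‖g l‖ ≤ 2 * (C * w) * pn (3 * w) l}
      ∩ {g | Lin g}) ((compact_ball _).inter_right (closed_all fun l => closed_all fun l' =>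
      closed_lin fun x => WC.ev _))
    (fun n => {g | ∀ l, CBn (fun x => c * (φ (x :: l) - dd g (x :: l)))
      ((4 * C * w * pn (2 * w) l) ^ 2) n})
    (fun n => closed_all fun l => closed_cbn (fun x => ((WC.const _).sub (((WC.ev l).lmul x).add
      (wc_DD _ WC.ev))).lmul c) _ _) fun t => by
      have mu : MU (fun i : Fin (t.sup id + 1) => s i) c _ :=
        ⟨hc.1, fun i j => by simp [s2, Fin.ext_iff], rfl⟩
      refine ⟨HH (fa (fun i : Fin (t.sup id + 1) => s i) c) (fb (fun i => s i) c) φ,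
        ⟨fun l => (sum_bd (fa_bd mu) (r := C * w * pn (3 * w) l) (by
          have := pn_nn (show 0 ≤ 3 * w by positivity) l; positivity) fun i =>
          (h3.SS (fa_bd mu) l _).trans_eq (by ring)).trans_eq (by ring), h1.HH⟩, fun n hn l => ?_⟩
      simp only [homotopy (fa_fb mu) h1 h2]
      exact PP_cb mu hc (fun _ => s1 _) h1 h3 l (by
        simpa using (le_sup (f := id) hn).trans (Nat.le_succ _))
  change List A → A at g
  have g4 : BdC g (2 * (C * w)) (3 * w) := ⟨by positivity, by linarith [h3.2.1], g1⟩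
  have k1 := h1.sub g2.dd
  have k2 := h2.sub (co_dd g)
  obtain ⟨a, a1, a2, a3⟩ := cb_case (k1.smul c) (k2.cen hc.2) (C := 4 * C * w) (w := 2 * w)
    (by positivity) (by linarith [h3.2.1]) fun l n => g3 n l
  obtain ⟨b, b1, b2, b3⟩ := fin_case k1 k2 (sub_eq_add_neg φ _ ▸ h3.add g4.dd.neg) hc.one_sub c2
  refine ⟨_, (g2.add a1).add b1, bdc_mono ((g4.add a2).add b2) ?_ (by linarith), fun x l => ?_⟩
  · have w1 := h3.2.1
    have : C * w ≤ C * w * w := le_mul_of_one_le_right (by positivity) w1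
    nlinarith
  · rw [dd_add, dd_add, ← a3, ← b3]
    simp [sub_mul]

theorem quant {a : A → A → A} (ha : Bil a) {α D : ℝ} (hα : 0 ≤ α) (hD : 0 ≤ D)
    (h1 : ∀ x y, ‖a x y‖ ≤ α * (‖x‖ * ‖y‖))
    (h2 : ∀ x y z, ‖x * a y z - a (x * y) z + a x (y * z) - a x y * z‖ ≤
      D * (‖x‖ * ‖y‖ * ‖z‖)) :
    ∃ b : A → A, IsLinearMap ℂ b ∧ (∀ x, ‖b x‖ ≤ 10 ^ 8 * (α + D) * ‖x‖) ∧
      ∀ x y, ‖a x y - (x * b y - b (x * y) + b x * y)‖ ≤ 10 ^ 8 * D * (‖x‖ * ‖y‖) := by
  have hL := lift2_lin ha
  have b1 : BdC (lift2 a) α 1 := ⟨hα, le_rfl, fun l => by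
    by_cases hl : l.length = 2
    · obtain ⟨x, y, rfl⟩ := List.length_eq_two.1 hl
      simpa [pn, lift2] using h1 x y
    · rw [lift2_zero a l hl, norm_zero]
      exact mul_nonneg hα (pn_nn zero_le_one l)⟩
  have b2 : BdC (dd (lift2 a)) D 1 := ⟨hD, le_rfl, fun l => by
    by_cases hl : l.length = 3
    · obtain ⟨x, y, z, rfl⟩ := List.length_eq_three.1 hl
      have e : dd (lift2 a) [x, y, z] = x * a y z - a (x * y) z + a x (y * z) - a x y * z := by
        simp only [dd, DD_cons, sh_cons, sh_nil, cs_apply, DD_nil, lift2]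
        abel
      rw [e]
      refine (h2 x y z).trans (le_of_eq ?_)
      simp only [pn]
      ring
    · rw [dd_zero l _ fun l' hl' => lift2_zero a l' (by omega), norm_zero]
      exact mul_nonneg hD (pn_nn zero_le_one l)⟩
  obtain ⟨g, g1, g2, g3⟩ := coh_q hL.dd (co_dd _) b2
  have c2 : Co (lift2 a - g) := fun y l => by
    have := dd_add (lift2 a - g) g (y :: l)
    rwa [sub_add_cancel, g3, eq_comm, add_eq_right] at this
  obtain ⟨h, k1, k2, k3⟩ := coh_q (hL.sub g1) c2 (sub_eq_add_neg (lift2 a) g ▸ b1.add g2.neg)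
  refine ⟨fun x => h [x], k1 [] [], fun x => ?_, fun x y => ?_⟩
  · refine (k2.2.2 [x]).trans ?_
    simp only [pn]
    have := norm_nonneg x
    nlinarith [mul_nonneg hα this, mul_nonneg hD this]
  · have e : a x y - (x * h [y] - h [x * y] + h [x] * y) = g [x, y] := by
      have := k3 x [y]
      simp only [dd, DD_cons, sh_cons, sh_nil, cs_apply, DD_nil, Pi.sub_apply, lift2] at this
      rw [sub_eq_iff_eq_add] at this
      rw [this]
      abel
    rw [e]
    refine (g2.2.2 [x, y]).trans ?_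
    simp only [pn]
    have := mul_nonneg hD (mul_nonneg (norm_nonneg x) (norm_nonneg y))
    nlinarith

theorem quant_star {a : A → A → A} (ha : Bil a) (hs : ∀ x y, star (a x y) = a (star y) (star x))
    {α D : ℝ} (hα : 0 ≤ α) (hD : 0 ≤ D) (h1 : ∀ x y, ‖a x y‖ ≤ α * (‖x‖ * ‖y‖))
    (h2 : ∀ x y z, ‖x * a y z - a (x * y) z + a x (y * z) - a x y * z‖ ≤
      D * (‖x‖ * ‖y‖ * ‖z‖)) :
    ∃ b : A →L[ℂ] A, (∀ x, b (star x) = star (b x)) ∧ ‖b‖ ≤ 10 ^ 8 * (α + D) ∧
      ∀ x y, ‖a x y - (x * b y - b (x * y) + b x * y)‖ ≤ 10 ^ 8 * D * (‖x‖ * ‖y‖) := by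
  obtain ⟨b, b1, b2, b3⟩ := quant ha hα hD h1 h2
  have l1 : IsLinearMap ℂ fun x => (1 / 2 : ℝ) • (b x + star (b (star x))) :=
    lin_smul (lin_add b1 ⟨fun x y => by rw [star_add, b1.map_add, star_add],
      fun c x => by rw [star_smul, b1.map_smul, star_smul, star_star]⟩) _
  have hb : ∀ x, ‖(1 / 2 : ℝ) • (b x + star (b (star x)))‖ ≤ 10 ^ 8 * (α + D) * ‖x‖ := fun x => by
    have e1 := b2 x
    have e2 := b2 (star x)
    have e3 := norm_add_le (b x) (star (b (star x)))
    rw [norm_star] at e2 e3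
    rw [norm_smul, Real.norm_of_nonneg (by norm_num)]
    linarith
  refine ⟨(l1.mk' _).mkContinuous _ hb, fun x => ?_,
    LinearMap.mkContinuous_norm_le _ (by positivity) _, fun x y => ?_⟩
  · change (1 / 2 : ℝ) • (b (star x) + star (b (star (star x)))) =
      star ((1 / 2 : ℝ) • (b x + star (b (star x))))
    rw [star_smul, star_add, star_star, star_star, star_trivial (1 / 2 : ℝ), add_comm]
  · change ‖a x y - (x * ((1 / 2 : ℝ) • (b y + star (b (star y)))) -
      (1 / 2 : ℝ) • (b (x * y) + star (b (star (x * y)))) +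
      ((1 / 2 : ℝ) • (b x + star (b (star x)))) * y)‖ ≤ _
    have e1 := b3 x y
    have e2 := b3 (star y) (star x)
    rw [← norm_star, norm_star x, norm_star y, mul_comm ‖y‖] at e2
    have e3 : a x y - (x * ((1 / 2 : ℝ) • (b y + star (b (star y)))) -
        (1 / 2 : ℝ) • (b (x * y) + star (b (star (x * y)))) +
        ((1 / 2 : ℝ) • (b x + star (b (star x)))) * y) =
        (1 / 2 : ℝ) • ((a x y - (x * b y - b (x * y) + b x * y)) +
          star (a (star y) (star x) -
            (star y * b (star x) - b (star y * star x) + b (star y) * star x))) := by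
      rw [← hs, star_mul x y]
      simp only [star_sub, star_add, star_mul, star_star, mul_smul_comm, smul_mul_assoc, mul_add,
        add_mul]
      module
    rw [e3, norm_smul, Real.norm_of_nonneg (by norm_num)]
    linarith [norm_add_le (a x y - (x * b y - b (x * y) + b x * y)) (star (a (star y) (star x) -
      (star y * b (star x) - b (star y * star x) + b (star y) * star x)))]

end Vale.Agent.P096H
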